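import Vale.Agent.P245.Final

open MeasureTheory

namespace Vale.Agent.Results.P245.A_subpoly

open Vale.Agent.P245

theorem result : ∃ C : ℝ, 0 < C ∧ ∀ n : ℕ, 1 ≤ n →
    ∀ ρ : EuclideanSpace ℝ (Fin n) → ℝ, Measurable ρ → (∀ x, 0 ≤ ρ x) → LogConcave ρ →
    ∀ μ : Measure (EuclideanSpace ℝ (Fin n)),
      μ = volume.withDensity (fun x => ENNReal.ofReal (ρ x)) → IsProbabilityMeasure μ →
    ∀ a : ℝ, 0 < a → Subg μ a →
    ∀ f : EuclideanSpace ℝ (Fin n) → ℝ, ContDiff ℝ 2 f → HasCompactSupport f →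
      ent μ (fun x => f x ^ 2) ≤
        Real.exp (C * (1 + √(Real.log n))) * a ^ 2 * ∫ x, ‖gradient f x‖ ^ 2 ∂μ := by
  refine ⟨45, by norm_num, fun n hn ρ hm h0 hl μ hμ hp a ha hs f hf hc => ?_⟩
  subst hμ
  exact final hn hm h0 hl hp ha hs (sd_of_smooth hf hc)

end Vale.Agent.Results.P245.A_subpoly
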